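import Vale.Agent.Lib.P064.Packing

/-!
# P064: the number of labelled copies of a connected graph
-/

namespace Vale.Agent.Lib.P064

open SimpleGraph

/-- the expectation hypothesis at density `p`, in closed form: every graph `F'` contained in `H` has
`N(K_n,F') p^{e(F')} ≥ 1/2` -/
def HypE {V : Type} (n : ℕ) (p : ℝ) (H : SimpleGraph V) : Prop :=
  ∀ (W' : Type) [Finite W'] (F' : SimpleGraph W'), F' ⊑ H →
    (1 / 2 : ℝ) ≤ ((⊤ : SimpleGraph (Fin n)).copyCount F' : ℝ) * p ^ Nat.card F'.edgeSet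

theorem le_of_half_le_pow_div_factorial (x : ℝ) (hx : 0 ≤ x) (r : ℕ)
    (h : (1 / 2 : ℝ) ≤ x ^ r / r.factorial) : (r : ℝ) ≤ 2 * Real.exp 1 * x := by
  by_contra hlt
  push Not at hlt
  have he : 0 < Real.exp 1 := Real.exp_pos 1
  have hr0 : (0 : ℝ) < r := lt_of_le_of_lt (by positivity) hlt
  have hr : 0 < r := by exact_mod_cast hr0
  have h1 : x < r / (2 * Real.exp 1) := by
    rw [lt_div_iff₀ (by positivity)]
    linarith
  have h2 : x ^ r < (r / (2 * Real.exp 1)) ^ r := pow_lt_pow_left₀ h1 hx hr.ne'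
  have h3 : (r : ℝ) ^ r / r.factorial ≤ Real.exp 1 ^ r := by
    rw [Real.exp_one_pow]
    exact Real.pow_div_factorial_le_exp r hr0.le r
  have hf : (0 : ℝ) < r.factorial := by exact_mod_cast r.factorial_pos
  have h4 : (r : ℝ) ^ r ≤ Real.exp 1 ^ r * r.factorial := by
    rwa [div_le_iff₀ hf] at h3
  have h5 : (2 : ℝ) ≤ 2 ^ r := by
    calc (2 : ℝ) = 2 ^ 1 := by norm_num
      _ ≤ 2 ^ r := pow_le_pow_right₀ (by norm_num) hr
  have h6 : (r / (2 * Real.exp 1)) ^ r ≤ r.factorial / 2 := by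
    rw [div_pow, mul_pow, div_le_div_iff₀ (by positivity) (by norm_num)]
    calc (r : ℝ) ^ r * 2 ≤ (Real.exp 1 ^ r * r.factorial) * 2 := by linarith
      _ ≤ (Real.exp 1 ^ r * r.factorial) * 2 ^ r := by
          apply mul_le_mul_of_nonneg_left h5 (by positivity)
      _ = r.factorial * (2 ^ r * Real.exp 1 ^ r) := by ring
  have h7 : x ^ r / r.factorial < 1 / 2 := by
    rw [div_lt_iff₀ hf]
    linarith
  linarith

variable {V : Type} {W : Type}

/-- bound on the number of vertex-disjoint copies of `F` in `H` -/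
theorem rep_le_of_hyp [Finite W] [Nonempty W] (n : ℕ) (p : ℝ) (hp0 : 0 ≤ p) (hp1 : p ≤ 1)
    (H : SimpleGraph V) (hyp : HypE n p H) (F : SimpleGraph W) (r : ℕ) (hr : rep r F ⊑ H) :
    (r : ℝ) ≤ 2 * Real.exp 1 * ((n : ℝ) ^ Nat.card W * p ^ Nat.card F.edgeSet) := by
  apply le_of_half_le_pow_div_factorial _ (by positivity)
  have h := hyp (Fin r × W) (rep r F) hr
  set cc := (⊤ : SimpleGraph (Fin n)).copyCount (rep r F) with hcc
  have h1 : cc * Nat.card (rep r F ≃g rep r F) = n.descFactorial (r * Nat.card W) := by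
    rw [hcc, ← card_copy_eq, card_copy_top, Nat.card_prod, Nat.card_eq_fintype_card (α := Fin r),
      Fintype.card_fin]
  have h2 : cc * r.factorial ≤ n ^ (r * Nat.card W) :=
    calc cc * r.factorial ≤ cc * Nat.card (rep r F ≃g rep r F) :=
          Nat.mul_le_mul_left _ (factorial_le_card_aut_rep r F)
      _ = n.descFactorial (r * Nat.card W) := h1
      _ ≤ n ^ (r * Nat.card W) := Nat.descFactorial_le_pow _ _
  have h2' : (cc : ℝ) * r.factorial ≤ (n : ℝ) ^ (r * Nat.card W) := by exact_mod_cast h2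
  have hf : (0 : ℝ) < r.factorial := by exact_mod_cast r.factorial_pos
  have h3 : p ^ Nat.card (rep r F).edgeSet ≤ p ^ (r * Nat.card F.edgeSet) :=
    pow_le_pow_of_le_one hp0 hp1 (mul_card_edgeSet_le_rep r F)
  rw [le_div_iff₀ hf]
  calc (1 / 2 : ℝ) * r.factorial ≤ (cc * p ^ Nat.card (rep r F).edgeSet) * r.factorial := by
        apply mul_le_mul_of_nonneg_right h hf.le
    _ = (cc * r.factorial) * p ^ Nat.card (rep r F).edgeSet := by ring
    _ ≤ (n : ℝ) ^ (r * Nat.card W) * p ^ (r * Nat.card F.edgeSet) := by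
        apply mul_le_mul h2' h3 (by positivity) (by positivity)
    _ = ((n : ℝ) ^ Nat.card W * p ^ Nat.card F.edgeSet) ^ r := by
        rw [mul_pow, ← pow_mul, ← pow_mul, mul_comm r, mul_comm r]

/-- the number of labelled copies of a connected graph `F` in `H` -/
theorem card_copy_connected_le [Fintype V] [DecidableEq V] (H : SimpleGraph V)
    [DecidableRel H.Adj] (Δ : ℕ) (hΔ : ∀ u, H.degree u ≤ Δ) (n : ℕ) (p : ℝ) (hp0 : 0 ≤ p)
    (hp1 : p ≤ 1) (hyp : HypE n p H) [Finite W] (F : SimpleGraph W) (hc : F.Connected) :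
    (Nat.card (Copy F H) : ℝ) ≤ 2 * Real.exp 1 * (Nat.card W : ℝ) ^ 2 * (Δ : ℝ) ^ (Nat.card W - 1) *
      ((n : ℝ) ^ Nat.card W * p ^ Nat.card F.edgeSet) := by
  have : Nonempty W := hc.nonempty
  obtain ⟨r, ⟨Φ⟩, hmax⟩ := exists_max_rep H F
  have h1 := card_copy_le_of_max H Δ hΔ F hc r Φ hmax
  have h2 := rep_le_of_hyp n p hp0 hp1 H hyp F r ⟨Φ⟩
  have h1' : (Nat.card (Copy F H) : ℝ) ≤
      (Nat.card W : ℝ) * ((r : ℝ) * Nat.card W) * (Δ : ℝ) ^ (Nat.card W - 1) := by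
    exact_mod_cast h1
  calc (Nat.card (Copy F H) : ℝ)
      ≤ (Nat.card W : ℝ) * ((r : ℝ) * Nat.card W) * (Δ : ℝ) ^ (Nat.card W - 1) := h1'
    _ = (r : ℝ) * ((Nat.card W : ℝ) ^ 2 * (Δ : ℝ) ^ (Nat.card W - 1)) := by ring
    _ ≤ (2 * Real.exp 1 * ((n : ℝ) ^ Nat.card W * p ^ Nat.card F.edgeSet)) *
        ((Nat.card W : ℝ) ^ 2 * (Δ : ℝ) ^ (Nat.card W - 1)) := by
        apply mul_le_mul_of_nonneg_right h2 (by positivity)
    _ = _ := by ring

end Vale.Agent.Lib.P064
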