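import Mathlib

/-!
# P064: labelled versus unlabelled copies
-/

namespace Vale.Agent.Lib.P064

open SimpleGraph

variable {V W : Type*}

instance finite_copy [Finite V] [Finite W] (F : SimpleGraph W) (G : SimpleGraph V) :
    Finite (Copy F G) :=
  Finite.of_injective (fun f : Copy F G => (f : W → V)) DFunLike.coe_injective

instance finite_iso [Finite V] [Finite W] (F : SimpleGraph W) (G : SimpleGraph V) :
    Finite (F ≃g G) :=
  Finite.of_injective (fun f : F ≃g G => (f : W → V)) DFunLike.coe_injective

instance finite_hom [Finite V] [Finite W] (F : SimpleGraph W) (G : SimpleGraph V) :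
    Finite (F →g G) :=
  Finite.of_injective (fun f : F →g G => (f : W → V)) DFunLike.coe_injective

theorem copyCount_eq_natCard [Fintype V] (G : SimpleGraph V) (F : SimpleGraph W) :
    G.copyCount F = Nat.card {G' : G.Subgraph // Nonempty (F ≃g G'.coe)} := by
  classical
  rw [copyCount, Nat.card_eq_fintype_card, Fintype.card_subtype]

/-- the copy of `F` in `G` given by a subgraph `G'` and an isomorphism of `F` with `G'` -/
def copyOfIso {G : SimpleGraph V} {F : SimpleGraph W} (G' : G.Subgraph) (e : F ≃g G'.coe) :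
    Copy F G :=
  ⟨G'.hom.comp e.toHom, Subgraph.hom_injective.comp e.injective⟩

theorem toSubgraph_copyOfIso {G : SimpleGraph V} {F : SimpleGraph W} (G' : G.Subgraph)
    (e : F ≃g G'.coe) : (copyOfIso G' e).toSubgraph = G' := by
  simp [copyOfIso, Copy.toSubgraph, Subgraph.map_comp]

/-- labelled copies = unlabelled copies times automorphisms -/
theorem card_copy_eq [Fintype V] [Finite W] (G : SimpleGraph V) (F : SimpleGraph W) :
    Nat.card (Copy F G) = G.copyCount F * Nat.card (F ≃g F) := by
  classical
  let T := {G' : G.Subgraph // Nonempty (F ≃g G'.coe)}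
  let Ψ : (Σ G' : T, (F ≃g G'.1.coe)) → Copy F G := fun x => copyOfIso x.1.1 x.2
  have hinj : Function.Injective Ψ := by
    rintro ⟨⟨G1, h1⟩, e1⟩ ⟨⟨G2, h2⟩, e2⟩ h
    have hG : G1 = G2 := by
      have := congrArg Copy.toSubgraph h
      simpa [Ψ, toSubgraph_copyOfIso] using this
    subst hG
    have he : e1 = e2 := by
      ext a
      have := congrArg (fun f : Copy F G => f a) h
      exact this
    subst he
    rfl
  have hsurj : Function.Surjective Ψ := by
    intro f
    refine ⟨⟨⟨f.toSubgraph, ⟨f.isoToSubgraph⟩⟩, f.isoToSubgraph⟩, ?_⟩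
    ext a
    rfl
  have hfin : Finite T := inferInstance
  have : Fintype T := Fintype.ofFinite T
  rw [← Nat.card_congr (Equiv.ofBijective Ψ ⟨hinj, hsurj⟩), Nat.card_sigma, copyCount_eq_natCard]
  have : ∀ G' : T, Nat.card (F ≃g G'.1.coe) = Nat.card (F ≃g F) := by
    rintro ⟨G', ⟨e⟩⟩
    exact Nat.card_congr
      { toFun := fun f => e.symm.comp f
        invFun := fun f => e.comp f
        left_inv := fun f => by ext a; simp
        right_inv := fun f => by ext a; simp }
  rw [Finset.sum_congr rfl (fun G' _ => this G'), Finset.sum_const, Finset.card_univ, smul_eq_mul,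
    ← Nat.card_eq_fintype_card]

theorem card_aut_pos [Finite W] (F : SimpleGraph W) : 0 < Nat.card (F ≃g F) :=
  Nat.card_pos_iff.mpr ⟨⟨Iso.refl⟩, inferInstance⟩

/-- labelled copies in the complete graph -/
theorem card_copy_top [Finite W] (n : ℕ) (F : SimpleGraph W) :
    Nat.card (Copy F (⊤ : SimpleGraph (Fin n))) = n.descFactorial (Nat.card W) := by
  classical
  have : Fintype W := Fintype.ofFinite W
  have e : Copy F (⊤ : SimpleGraph (Fin n)) ≃ (W ↪ Fin n) :=
    { toFun := fun f => f.toEmbedding
      invFun := fun φ => ⟨⟨φ, fun {a b} h => by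
        simpa using φ.injective.ne h.ne⟩, φ.injective⟩
      left_inv := fun f => by ext a; rfl
      right_inv := fun φ => by ext a; rfl }
  rw [Nat.card_congr e, Nat.card_eq_fintype_card, Fintype.card_embedding_eq, Fintype.card_fin,
    Nat.card_eq_fintype_card]

/-- `copyCount` only depends on the isomorphism class of the pattern -/
theorem copyCount_congr [Fintype V] {W' : Type*} (G : SimpleGraph V) {F : SimpleGraph W}
    {F' : SimpleGraph W'} (e : F ≃g F') : G.copyCount F = G.copyCount F' := by
  rw [copyCount_eq_natCard, copyCount_eq_natCard]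
  refine Nat.card_congr (Equiv.subtypeEquivRight fun G' => ?_)
  exact ⟨fun ⟨f⟩ => ⟨f.comp e.symm⟩, fun ⟨f⟩ => ⟨f.comp e⟩⟩

theorem card_edgeSet_congr {W' : Type*} {F : SimpleGraph W} {F' : SimpleGraph W'} (e : F ≃g F') :
    Nat.card F.edgeSet = Nat.card F'.edgeSet :=
  Nat.card_congr e.mapEdgeSet

end Vale.Agent.Lib.P064
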