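import Vale.Agent.Lib.P064.ConnectedBound

/-!
# P064: decomposition of a pattern into isolated vertices and connected components
-/

namespace Vale.Agent.Lib.P064

open SimpleGraph

variable {V : Type} {W : Type}

/-- labelled copies of `F` restrict injectively to the components of `F` -/
theorem card_copy_le_prod_components [Finite V] [Finite W] (F : SimpleGraph W) (H : SimpleGraph V)
    [Fintype F.ConnectedComponent] :
    Nat.card (Copy F H) ≤ ∏ c : F.ConnectedComponent, Nat.card (Copy c.toSimpleGraph H) := by
  classical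
  let res : Copy F H → ∀ c : F.ConnectedComponent, Copy c.toSimpleGraph H := fun f c =>
    f.comp ⟨c.toSimpleGraph_hom, Subtype.val_injective⟩
  have hres : Function.Injective res := by
    intro f g h
    ext w
    have h1 := congrFun h (F.connectedComponentMk w)
    have h2 := congrArg (fun k : Copy (F.connectedComponentMk w).toSimpleGraph H =>
      k ⟨w, rfl⟩) h1
    exact h2
  calc Nat.card (Copy F H) ≤ Nat.card (∀ c : F.ConnectedComponent, Copy c.toSimpleGraph H) :=
        Nat.card_le_card_of_injective res hres
    _ = _ := Nat.card_pi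

theorem sum_card_components [Finite W] (F : SimpleGraph W) [Fintype F.ConnectedComponent] :
    ∑ c : F.ConnectedComponent, Nat.card c = Nat.card W := by
  rw [← Nat.card_sigma]
  exact Nat.card_congr (Equiv.sigmaFiberEquiv F.connectedComponentMk)

theorem card_edgeSet_le_sum_components [Finite W] (F : SimpleGraph W)
    [Fintype F.ConnectedComponent] :
    Nat.card F.edgeSet ≤ ∑ c : F.ConnectedComponent, Nat.card c.toSimpleGraph.edgeSet := by
  rw [← Nat.card_sigma]
  let m : (Σ c : F.ConnectedComponent, c.toSimpleGraph.edgeSet) → F.edgeSet :=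
    fun x => x.1.toSimpleGraph_hom.mapEdgeSet x.2
  refine Nat.card_le_card_of_surjective m ?_
  rintro ⟨e, he⟩
  induction e using Sym2.ind with
  | _ x y =>
    have hxy : F.Adj x y := he
    have hy : y ∈ (F.connectedComponentMk x).supp :=
      (F.connectedComponentMk x).mem_supp_of_adj_mem_supp rfl hxy
    refine ⟨⟨F.connectedComponentMk x, ⟨s(⟨x, rfl⟩, ⟨y, hy⟩), ?_⟩⟩, ?_⟩
    · exact hxy
    · rfl

theorem one_le_card_edgeSet_component [Finite W] (F : SimpleGraph W)
    (hF : ∀ w, ∃ w', F.Adj w w') (c : F.ConnectedComponent) :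
    1 ≤ Nat.card c.toSimpleGraph.edgeSet := by
  obtain ⟨x, hx⟩ := c.nonempty_supp
  obtain ⟨y, hxy⟩ := hF x
  have hy : y ∈ c.supp := c.mem_supp_of_adj_mem_supp hx hxy
  have : Nonempty c.toSimpleGraph.edgeSet := ⟨⟨s(⟨x, hx⟩, ⟨y, hy⟩), hxy⟩⟩
  exact Nat.card_pos

/-- removing the isolated vertices of the pattern -/
theorem card_copy_le_induce_support [Fintype V] [Finite W] (F : SimpleGraph W)
    (H : SimpleGraph V) :
    Nat.card (Copy F H) ≤ Nat.card (Copy (F.induce F.support) H) *
      (Fintype.card V - Nat.card F.support).descFactorial (Nat.card W - Nat.card F.support) := by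
  classical
  have : Fintype W := Fintype.ofFinite W
  have : Fintype (Copy (F.induce F.support) H) := Fintype.ofFinite _
  let res : Copy F H → Copy (F.induce F.support) H := fun f => f.comp (Copy.induce F F.support)
  have hfib : ∀ ψ : Copy (F.induce F.support) H, Nat.card {f : Copy F H // res f = ψ} ≤
      (Fintype.card V - Nat.card F.support).descFactorial (Nat.card W - Nat.card F.support) := by
    intro ψ
    let m : {f : Copy F H // res f = ψ} → ({w : W // w ∉ F.support} ↪ {x : V // x ∉ Set.range ψ}) :=
      fun f => ⟨fun w => ⟨f.1 w.1, by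
          rintro ⟨s, hs⟩
          have h1 : ψ s = f.1 s.1 := congrArg (fun k : Copy (F.induce F.support) H => k s) f.2.symm
          have h2 : s.1 = w.1 := f.1.injective (h1.symm.trans hs)
          exact w.2 (h2 ▸ s.2)⟩, by
          intro w w' h
          have h1 : f.1 w.1 = f.1 w'.1 := congrArg Subtype.val h
          exact Subtype.ext (f.1.injective h1)⟩
    have hm : Function.Injective m := by
      rintro ⟨f, hf⟩ ⟨g, hg⟩ h
      apply Subtype.ext
      ext w
      by_cases hw : w ∈ F.support
      · have h1 : ψ ⟨w, hw⟩ = f w := by rw [← hf]; rfl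
        have h2 : ψ ⟨w, hw⟩ = g w := by rw [← hg]; rfl
        exact h1.symm.trans h2
      · have h1 := congrArg (fun k : {w : W // w ∉ F.support} ↪ {x : V // x ∉ Set.range ψ} =>
          (k ⟨w, hw⟩).1) h
        exact h1
    calc Nat.card {f : Copy F H // res f = ψ}
        ≤ Nat.card ({w : W // w ∉ F.support} ↪ {x : V // x ∉ Set.range ψ}) :=
          Nat.card_le_card_of_injective m hm
      _ = _ := by
          rw [Nat.card_eq_fintype_card, Fintype.card_embedding_eq, Fintype.card_subtype_compl,
            Fintype.card_subtype_compl]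
          congr 2
          · rw [Nat.card_eq_fintype_card]
            exact Set.card_range_of_injective ψ.injective
          · rw [Nat.card_eq_fintype_card]
          · rw [Nat.card_eq_fintype_card]
  calc Nat.card (Copy F H) = Nat.card (Σ ψ, {f : Copy F H // res f = ψ}) :=
        (Nat.card_congr (Equiv.sigmaFiberEquiv res)).symm
    _ = ∑ ψ, Nat.card {f : Copy F H // res f = ψ} := Nat.card_sigma
    _ ≤ ∑ _ψ : Copy (F.induce F.support) H,
        (Fintype.card V - Nat.card F.support).descFactorial (Nat.card W - Nat.card F.support) :=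
        Finset.sum_le_sum fun ψ _ => hfib ψ
    _ = _ := by
        rw [Finset.sum_const, Finset.card_univ, smul_eq_mul,
          Nat.card_eq_fintype_card (α := Copy (F.induce F.support) H)]

theorem induce_support_no_isolated (F : SimpleGraph W) :
    ∀ w : F.support, ∃ w', (F.induce F.support).Adj w w' := by
  rintro ⟨w, hw⟩
  obtain ⟨w', hww'⟩ := (F.mem_support).mp hw
  exact ⟨⟨w', (F.mem_support).mpr ⟨w, hww'.symm⟩⟩, hww'⟩

theorem card_edgeSet_le_induce_support [Finite W] (F : SimpleGraph W) :
    Nat.card F.edgeSet ≤ Nat.card (F.induce F.support).edgeSet := by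
  refine Nat.card_le_card_of_surjective (Embedding.induce F.support).toHom.mapEdgeSet ?_
  rintro ⟨e, he⟩
  induction e using Sym2.ind with
  | _ x y =>
    have hxy : F.Adj x y := he
    refine ⟨⟨s(⟨x, (F.mem_support).mpr ⟨y, hxy⟩⟩, ⟨y, (F.mem_support).mpr ⟨x, hxy.symm⟩⟩), ?_⟩, ?_⟩
    · exact hxy
    · rfl

end Vale.Agent.Lib.P064
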