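import Mathlib

/-!
# P064: definitions

The binomial random graph `G(n,p)` on the vertex set `Fin n`, the expected number of copies of a
graph in it, and the two expectation thresholds `p_E(n,H)` and `p̃_E(n,H)` of the problem.
The number `N(G,F)` of subgraphs of `G` isomorphic to `F` is Mathlib's `SimpleGraph.copyCount G F`.
-/

namespace Vale.Agent.Lib.P064

open SimpleGraph

/-- The probability that `G(n,p)` equals `G`: `p^{e(G)} (1-p)^{C(n,2)-e(G)}`. -/
noncomputable def gnpProb (n : ℕ) (p : ℝ) (G : SimpleGraph (Fin n)) : ℝ :=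
  p ^ Nat.card G.edgeSet * (1 - p) ^ (n.choose 2 - Nat.card G.edgeSet)

/-- `E N(G(n,p),F)`: the expected number of subgraphs of `G(n,p)` isomorphic to `F`. -/
noncomputable def expCopies (n : ℕ) (p : ℝ) {W : Type} (F : SimpleGraph W) : ℝ :=
  ∑ G : SimpleGraph (Fin n), gnpProb n p G * (G.copyCount F : ℝ)

/-- `p_E(n,H) = min {p ∈ [0,1] : E N(G(n,p),F) ≥ 1/2 for every subgraph F ⊆ H}`. -/
noncomputable def pE (n : ℕ) {V : Type} (H : SimpleGraph V) : ℝ :=
  sInf {p : ℝ | 0 ≤ p ∧ p ≤ 1 ∧ ∀ F : H.Subgraph, 1 / 2 ≤ expCopies n p F.coe}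

/-- `p̃_E(n,H) = min {p ∈ [0,1] : E N(G(n,p),F) ≥ N(H,F)/2 for every subgraph F ⊆ H}`. -/
noncomputable def pETilde (n : ℕ) {V : Type} [Fintype V] (H : SimpleGraph V) : ℝ :=
  sInf {p : ℝ | 0 ≤ p ∧ p ≤ 1 ∧
    ∀ F : H.Subgraph, (H.copyCount F.coe : ℝ) / 2 ≤ expCopies n p F.coe}

end Vale.Agent.Lib.P064
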