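import Vale.Agent.Lib.P064.Defs
import Vale.Agent.Lib.P064.Count

/-!
# P064: linearity of expectation, `E N(G(n,p),F) = N(K_n,F) p^{e(F)}`
-/

namespace Vale.Agent.Lib.P064

open SimpleGraph

open scoped Classical in
/-- the probability that `G(n,p)` contains a fixed graph `K` -/
theorem sum_gnpProb_ge (n : ℕ) (p : ℝ) (K : SimpleGraph (Fin n)) :
    ∑ G : SimpleGraph (Fin n), (if K ≤ G then gnpProb n p G else 0) = p ^ Nat.card K.edgeSet := by
  classical
  set E := (⊤ : SimpleGraph (Fin n)).edgeFinset with hEdef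
  have hE : E.card = n.choose 2 := by
    rw [hEdef, card_edgeFinset_top_eq_card_choose_two, Fintype.card_fin]
  have hKE : K.edgeFinset ⊆ E := edgeFinset_mono le_top
  have hcard : ∀ G : SimpleGraph (Fin n), Nat.card G.edgeSet = G.edgeFinset.card := by
    intro G
    rw [Nat.card_eq_fintype_card, edgeFinset_card]
  have h1 : ∑ G : SimpleGraph (Fin n), (if K ≤ G then gnpProb n p G else 0) =
      ∑ S ∈ E.powerset,
        (if K.edgeFinset ⊆ S then p ^ S.card * (1 - p) ^ (E.card - S.card) else 0) := by
    refine Finset.sum_nbij' (fun G => G.edgeFinset) (fun S => fromEdgeSet (S : Set (Sym2 (Fin n))))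
      ?_ ?_ ?_ ?_ ?_
    · intro G _
      exact Finset.mem_powerset.mpr (edgeFinset_mono le_top)
    · intro S _
      exact Finset.mem_univ _
    · intro G _
      simp
    · intro S hS
      have hS' := Finset.mem_powerset.mp hS
      ext e
      simp only [mem_edgeFinset, edgeSet_fromEdgeSet, Set.mem_sdiff, Finset.mem_coe]
      constructor
      · exact fun h => h.1
      · intro h
        refine ⟨h, ?_⟩
        have := hS' h
        rw [hEdef, mem_edgeFinset, edgeSet_top] at this
        exact this
    · intro G _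
      simp only [edgeFinset_subset_edgeFinset, gnpProb, hcard, hE]
  rw [h1]
  have h2 := Finset.prod_add (fun _ : Sym2 (Fin n) => p)
    (fun e => if e ∈ K.edgeFinset then 0 else 1 - p) E
  have h3 : ∏ e ∈ E, (p + if e ∈ K.edgeFinset then 0 else 1 - p) = p ^ K.edgeFinset.card := by
    have : ∀ e ∈ E, (p + if e ∈ K.edgeFinset then 0 else 1 - p) =
        if e ∈ K.edgeFinset then p else 1 := by
      intro e _
      split_ifs <;> ring
    rw [Finset.prod_congr rfl this, Finset.prod_ite, Finset.prod_const, Finset.prod_const_one,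
      mul_one, Finset.filter_mem_eq_inter, Finset.inter_eq_right.mpr hKE]
  rw [hcard, ← h3, h2]
  refine Finset.sum_congr rfl fun S hS => ?_
  have hS' := Finset.mem_powerset.mp hS
  rw [Finset.prod_const]
  split_ifs with hKS
  · congr 1
    have : ∀ e ∈ E \ S, (if e ∈ K.edgeFinset then 0 else 1 - p) = 1 - p := by
      intro e he
      rw [if_neg]
      intro hek
      exact (Finset.mem_sdiff.mp he).2 (hKS hek)
    rw [Finset.prod_congr rfl this, Finset.prod_const, Finset.card_sdiff_of_subset hS']
  · obtain ⟨e, heK, heS⟩ := Finset.not_subset.mp hKS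
    rw [Finset.prod_eq_zero (i := e) (Finset.mem_sdiff.mpr ⟨hKE heK, heS⟩) (by rw [if_pos heK]),
      mul_zero]

open scoped Classical in
/-- labelled copies as embeddings of the vertex set -/
theorem card_copy_eq_sum {W : Type} [Fintype W] (n : ℕ) (F : SimpleGraph W)
    (G : SimpleGraph (Fin n)) :
    Nat.card (Copy F G) = ∑ φ : W ↪ Fin n, (if F.map φ ≤ G then 1 else 0) := by
  classical
  have e : Copy F G ≃ {φ : W ↪ Fin n // F.map φ ≤ G} :=
    { toFun := fun f => ⟨f.toEmbedding, by
        rw [map_le_iff_le_comap]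
        intro a b h
        exact f.toHom.map_adj h⟩
      invFun := fun φ => ⟨⟨φ.1, fun {a b} h => by
        have := (map_le_iff_le_comap φ.1 F G).mp φ.2
        exact this h⟩, φ.1.injective⟩
      left_inv := fun f => by ext a; rfl
      right_inv := fun φ => by ext a; rfl }
  rw [Nat.card_congr e, Nat.card_eq_fintype_card, Fintype.card_subtype, Finset.card_filter]

theorem card_edgeSet_map {W : Type} [Finite W] (n : ℕ) (F : SimpleGraph W) (φ : W ↪ Fin n) :
    Nat.card (F.map φ).edgeSet = Nat.card F.edgeSet := by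
  rw [edgeSet_map]
  exact Nat.card_image_of_injective φ.sym2Map.injective _

/-- linearity of expectation -/
theorem expCopies_eq {W : Type} [Finite W] (n : ℕ) (p : ℝ) (F : SimpleGraph W) :
    expCopies n p F =
      ((⊤ : SimpleGraph (Fin n)).copyCount F : ℝ) * p ^ Nat.card F.edgeSet := by
  classical
  have : Fintype W := Fintype.ofFinite W
  have hA : (0 : ℝ) < (Nat.card (F ≃g F) : ℝ) := by exact_mod_cast card_aut_pos F
  apply mul_right_cancel₀ hA.ne'
  have h1 : expCopies n p F * (Nat.card (F ≃g F) : ℝ) =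
      ∑ G : SimpleGraph (Fin n), gnpProb n p G * (Nat.card (Copy F G) : ℝ) := by
    rw [expCopies, Finset.sum_mul]
    refine Finset.sum_congr rfl fun G _ => ?_
    rw [card_copy_eq]
    push_cast
    ring
  have h2 : ∑ G : SimpleGraph (Fin n), gnpProb n p G * (Nat.card (Copy F G) : ℝ) =
      ∑ φ : W ↪ Fin n, ∑ G : SimpleGraph (Fin n), (if F.map φ ≤ G then gnpProb n p G else 0) := by
    rw [Finset.sum_comm]
    refine Finset.sum_congr rfl fun G _ => ?_
    rw [card_copy_eq_sum]
    push_cast
    rw [Finset.mul_sum]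
    refine Finset.sum_congr rfl fun φ _ => ?_
    split_ifs <;> simp
  rw [h1, h2]
  have h3 : ∀ φ : W ↪ Fin n,
      ∑ G : SimpleGraph (Fin n), (if F.map φ ≤ G then gnpProb n p G else 0) =
        p ^ Nat.card F.edgeSet := by
    intro φ
    rw [sum_gnpProb_ge, card_edgeSet_map]
  rw [Finset.sum_congr rfl (fun φ _ => h3 φ), Finset.sum_const, Finset.card_univ,
    Fintype.card_embedding_eq, Fintype.card_fin, nsmul_eq_mul]
  have h4 := card_copy_eq (⊤ : SimpleGraph (Fin n)) F
  rw [card_copy_top, Nat.card_eq_fintype_card] at h4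
  rw [h4]
  push_cast
  ring

end Vale.Agent.Lib.P064
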