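import Vale.Agent.Lib.P064.Decomp

/-!
# P064: the main counting bound
-/

namespace Vale.Agent.Lib.P064

open SimpleGraph

theorem pow_mul_descFactorial_le (n s : ℕ) (h : s ≤ n) :
    ∀ k : ℕ, k ≤ s → n ^ k * s.descFactorial k ≤ s ^ k * n.descFactorial k := by
  intro k
  induction k with
  | zero => intro _; simp
  | succ k ih =>
    intro hk
    have h1 := ih (by omega)
    have h2 : n * (s - k) ≤ s * (n - k) := by
      obtain ⟨a, rfl⟩ := Nat.exists_eq_add_of_le (show k ≤ s by omega)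
      obtain ⟨b, rfl⟩ := Nat.exists_eq_add_of_le h
      have e1 : k + a - k = a := by omega
      have e2 : k + a + b - k = a + b := by omega
      rw [e1, e2]
      nlinarith
    rw [Nat.descFactorial_succ, Nat.descFactorial_succ, pow_succ, pow_succ]
    calc n ^ k * n * ((s - k) * s.descFactorial k)
        = (n ^ k * s.descFactorial k) * (n * (s - k)) := by ring
      _ ≤ (s ^ k * n.descFactorial k) * (s * (n - k)) := Nat.mul_le_mul h1 h2
      _ = s ^ k * s * ((n - k) * n.descFactorial k) := by ring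

theorem pow_le_exp_mul_descFactorial (n s : ℕ) (h : s ≤ n) :
    (n : ℝ) ^ s ≤ Real.exp 1 ^ s * (n.descFactorial s : ℝ) := by
  have h1 := pow_mul_descFactorial_le n s h s le_rfl
  rw [Nat.descFactorial_self] at h1
  have h1' : (n : ℝ) ^ s * s.factorial ≤ (s : ℝ) ^ s * n.descFactorial s := by exact_mod_cast h1
  have hf : (0 : ℝ) < s.factorial := by exact_mod_cast s.factorial_pos
  have h3 : (s : ℝ) ^ s / s.factorial ≤ Real.exp 1 ^ s := by
    rw [Real.exp_one_pow]
    exact Real.pow_div_factorial_le_exp s (Nat.cast_nonneg s) s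
  have h4 : (s : ℝ) ^ s ≤ Real.exp 1 ^ s * s.factorial := by
    rwa [div_le_iff₀ hf] at h3
  have h5 : (n : ℝ) ^ s * s.factorial ≤ (Real.exp 1 ^ s * (n.descFactorial s : ℝ)) * s.factorial :=
    calc (n : ℝ) ^ s * s.factorial ≤ (s : ℝ) ^ s * n.descFactorial s := h1'
      _ ≤ (Real.exp 1 ^ s * s.factorial) * n.descFactorial s := by
          apply mul_le_mul_of_nonneg_right h4 (by positivity)
      _ = _ := by ring
  exact le_of_mul_le_mul_right h5 hf

theorem two_mul_sq_le (m : ℕ) (hm : 1 ≤ m) : 2 * (m + 1) ^ 2 ≤ 8 ^ m := by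
  induction m, hm using Nat.le_induction with
  | base => norm_num
  | succ m hm ih =>
    have h1 : 8 ^ (m + 1) = 8 * 8 ^ m := by ring
    have h2 : 2 * (m + 1 + 1) ^ 2 ≤ 8 * (2 * (m + 1) ^ 2) := by nlinarith
    omega

/-- the numerical inequality used for one component with `v` vertices and `m` edges -/
theorem component_numeric (v m Δ : ℕ) (hm : 1 ≤ m) (hv : v ≤ m + 1) (hΔ : 1 ≤ Δ) :
    2 * Real.exp 1 * (v : ℝ) ^ 2 * (Δ : ℝ) ^ (v - 1) * Real.exp 1 ^ v ≤
      (8 * Real.exp 1 ^ 3 * Δ) ^ m := by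
  have he : 1 ≤ Real.exp 1 := by
    have := Real.add_one_le_exp (1 : ℝ)
    linarith
  have h1 : (2 : ℝ) * (v : ℝ) ^ 2 ≤ 8 ^ m := by
    have h2 : 2 * v ^ 2 ≤ 8 ^ m :=
      le_trans (Nat.mul_le_mul_left 2 (Nat.pow_le_pow_left hv 2)) (two_mul_sq_le m hm)
    exact_mod_cast h2
  have h3 : (Δ : ℝ) ^ (v - 1) ≤ (Δ : ℝ) ^ m :=
    pow_le_pow_right₀ (by exact_mod_cast hΔ) (by omega)
  have h4 : Real.exp 1 * Real.exp 1 ^ v ≤ (Real.exp 1 ^ 3) ^ m := by
    rw [← pow_succ', ← pow_mul]
    exact pow_le_pow_right₀ he (by omega)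
  calc 2 * Real.exp 1 * (v : ℝ) ^ 2 * (Δ : ℝ) ^ (v - 1) * Real.exp 1 ^ v
      = (2 * (v : ℝ) ^ 2) * (Real.exp 1 * Real.exp 1 ^ v) * (Δ : ℝ) ^ (v - 1) := by ring
    _ ≤ 8 ^ m * (Real.exp 1 ^ 3) ^ m * (Δ : ℝ) ^ m := by
        apply mul_le_mul (mul_le_mul h1 h4 (by positivity) (by positivity)) h3 (by positivity)
          (by positivity)
    _ = _ := by rw [mul_pow, mul_pow]

variable {V : Type} {W : Type}

/-- patterns without isolated vertices -/
theorem card_copy_le_of_no_isolated [Fintype V] [DecidableEq V] (H : SimpleGraph V)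
    [DecidableRel H.Adj] (Δ : ℕ) (hΔ1 : 1 ≤ Δ) (hΔ : ∀ u, H.degree u ≤ Δ) (n : ℕ) (p : ℝ)
    (hp0 : 0 ≤ p) (hp1 : p ≤ 1) (hyp : HypE n p H) (hP : 8 * Real.exp 1 ^ 3 * Δ * p ≤ 1)
    [Finite W] (F : SimpleGraph W) (hF : ∀ w, ∃ w', F.Adj w w') (hW : Nat.card W ≤ n) :
    (Nat.card (Copy F H) : ℝ) ≤
      (n.descFactorial (Nat.card W) : ℝ) * (8 * Real.exp 1 ^ 3 * Δ * p) ^ Nat.card F.edgeSet := by
  classical
  have : Fintype F.ConnectedComponent := Fintype.ofFinite _
  set P : ℝ := 8 * Real.exp 1 ^ 3 * Δ * p with hPdef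
  have hP0 : 0 ≤ P := by positivity
  have hcomp : ∀ c : F.ConnectedComponent,
      (Nat.card (Copy c.toSimpleGraph H) : ℝ) * Real.exp 1 ^ Nat.card c ≤
        (n : ℝ) ^ Nat.card c * P ^ Nat.card c.toSimpleGraph.edgeSet := by
    intro c
    have h1 := card_copy_connected_le H Δ hΔ n p hp0 hp1 hyp c.toSimpleGraph
      c.connected_toSimpleGraph
    have h2 := component_numeric (Nat.card c) (Nat.card c.toSimpleGraph.edgeSet) Δ
      (one_le_card_edgeSet_component F hF c)
      c.connected_toSimpleGraph.card_vert_le_card_edgeSet_add_one hΔ1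
    calc (Nat.card (Copy c.toSimpleGraph H) : ℝ) * Real.exp 1 ^ Nat.card c
        ≤ (2 * Real.exp 1 * (Nat.card c : ℝ) ^ 2 * (Δ : ℝ) ^ (Nat.card c - 1) *
          ((n : ℝ) ^ Nat.card c * p ^ Nat.card c.toSimpleGraph.edgeSet)) *
            Real.exp 1 ^ Nat.card c := by
          apply mul_le_mul_of_nonneg_right h1 (by positivity)
      _ = (2 * Real.exp 1 * (Nat.card c : ℝ) ^ 2 * (Δ : ℝ) ^ (Nat.card c - 1) *
            Real.exp 1 ^ Nat.card c) *
          ((n : ℝ) ^ Nat.card c * p ^ Nat.card c.toSimpleGraph.edgeSet) := by ring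
      _ ≤ (8 * Real.exp 1 ^ 3 * Δ) ^ Nat.card c.toSimpleGraph.edgeSet *
          ((n : ℝ) ^ Nat.card c * p ^ Nat.card c.toSimpleGraph.edgeSet) := by
          apply mul_le_mul_of_nonneg_right h2 (by positivity)
      _ = _ := by rw [hPdef, mul_pow (8 * Real.exp 1 ^ 3 * Δ) p]; ring
  have hprod : (Nat.card (Copy F H) : ℝ) * Real.exp 1 ^ Nat.card W ≤
      (n : ℝ) ^ Nat.card W * P ^ (∑ c : F.ConnectedComponent, Nat.card c.toSimpleGraph.edgeSet) := by
    have h1 : (Nat.card (Copy F H) : ℝ) ≤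
        ∏ c : F.ConnectedComponent, (Nat.card (Copy c.toSimpleGraph H) : ℝ) := by
      exact_mod_cast card_copy_le_prod_components F H
    calc (Nat.card (Copy F H) : ℝ) * Real.exp 1 ^ Nat.card W
        ≤ (∏ c : F.ConnectedComponent, (Nat.card (Copy c.toSimpleGraph H) : ℝ)) *
          Real.exp 1 ^ Nat.card W := by
          apply mul_le_mul_of_nonneg_right h1 (by positivity)
      _ = ∏ c : F.ConnectedComponent,
          ((Nat.card (Copy c.toSimpleGraph H) : ℝ) * Real.exp 1 ^ Nat.card c) := by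
          rw [Finset.prod_mul_distrib, Finset.prod_pow_eq_pow_sum, sum_card_components]
      _ ≤ ∏ c : F.ConnectedComponent,
          ((n : ℝ) ^ Nat.card c * P ^ Nat.card c.toSimpleGraph.edgeSet) :=
          Finset.prod_le_prod (fun c _ => by positivity) (fun c _ => hcomp c)
      _ = _ := by
          rw [Finset.prod_mul_distrib, Finset.prod_pow_eq_pow_sum, Finset.prod_pow_eq_pow_sum,
            sum_card_components]
  have hpow : P ^ (∑ c : F.ConnectedComponent, Nat.card c.toSimpleGraph.edgeSet) ≤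
      P ^ Nat.card F.edgeSet :=
    pow_le_pow_of_le_one hP0 hP (card_edgeSet_le_sum_components F)
  have hdesc := pow_le_exp_mul_descFactorial n (Nat.card W) hW
  have hexp : (0 : ℝ) < Real.exp 1 ^ Nat.card W := by positivity
  have hfin : (Nat.card (Copy F H) : ℝ) * Real.exp 1 ^ Nat.card W ≤
      ((n.descFactorial (Nat.card W) : ℝ) * P ^ Nat.card F.edgeSet) * Real.exp 1 ^ Nat.card W :=
    calc (Nat.card (Copy F H) : ℝ) * Real.exp 1 ^ Nat.card W
        ≤ (n : ℝ) ^ Nat.card W *
          P ^ (∑ c : F.ConnectedComponent, Nat.card c.toSimpleGraph.edgeSet) := hprod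
      _ ≤ (Real.exp 1 ^ Nat.card W * (n.descFactorial (Nat.card W) : ℝ)) * P ^ Nat.card F.edgeSet := by
          apply mul_le_mul hdesc hpow (by positivity) (by positivity)
      _ = _ := by ring
  exact le_of_mul_le_mul_right hfin hexp

/-- all patterns -/
theorem card_copy_le_main [Fintype V] [DecidableEq V] (H : SimpleGraph V)
    [DecidableRel H.Adj] (Δ : ℕ) (hΔ1 : 1 ≤ Δ) (hΔ : ∀ u, H.degree u ≤ Δ) (n : ℕ)
    (hVn : Fintype.card V ≤ n) (p : ℝ)
    (hp0 : 0 ≤ p) (hp1 : p ≤ 1) (hyp : HypE n p H) (hP : 8 * Real.exp 1 ^ 3 * Δ * p ≤ 1)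
    [Finite W] (F : SimpleGraph W) (hW : Nat.card W ≤ n) :
    (Nat.card (Copy F H) : ℝ) ≤
      (n.descFactorial (Nat.card W) : ℝ) * (8 * Real.exp 1 ^ 3 * Δ * p) ^ Nat.card F.edgeSet := by
  set P : ℝ := 8 * Real.exp 1 ^ 3 * Δ * p with hPdef
  have hP0 : 0 ≤ P := by positivity
  have hs : Nat.card F.support ≤ Nat.card W :=
    Nat.card_le_card_of_injective _ Subtype.val_injective
  have h1 := card_copy_le_induce_support F H
  have h2 := card_copy_le_of_no_isolated H Δ hΔ1 hΔ n p hp0 hp1 hyp hP (F.induce F.support)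
    (induce_support_no_isolated F) (hs.trans hW)
  have h3 : P ^ Nat.card (F.induce F.support).edgeSet ≤ P ^ Nat.card F.edgeSet :=
    pow_le_pow_of_le_one hP0 hP (card_edgeSet_le_induce_support F)
  have h4 : (Fintype.card V - Nat.card F.support).descFactorial (Nat.card W - Nat.card F.support) ≤
      (n - Nat.card F.support).descFactorial (Nat.card W - Nat.card F.support) :=
    Nat.descFactorial_le _ (Nat.sub_le_sub_right hVn _)
  have h5 := Nat.descFactorial_mul_descFactorial (n := n) hs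
  calc (Nat.card (Copy F H) : ℝ)
      ≤ (Nat.card (Copy (F.induce F.support) H) : ℝ) *
        ((Fintype.card V - Nat.card F.support).descFactorial
          (Nat.card W - Nat.card F.support) : ℕ) := by exact_mod_cast h1
    _ ≤ ((n.descFactorial (Nat.card F.support) : ℝ) * P ^ Nat.card F.edgeSet) *
        ((n - Nat.card F.support).descFactorial (Nat.card W - Nat.card F.support) : ℕ) := by
        apply mul_le_mul (h2.trans (mul_le_mul_of_nonneg_left h3 (by positivity)))
          (by exact_mod_cast h4) (by positivity) (by positivity)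
    _ = (((n - Nat.card F.support).descFactorial (Nat.card W - Nat.card F.support) *
          n.descFactorial (Nat.card F.support) : ℕ) : ℝ) * P ^ Nat.card F.edgeSet := by
        push_cast; ring
    _ = _ := by rw [h5]

end Vale.Agent.Lib.P064
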