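import Vale.Agent.Lib.P064.Rooted

/-!
# P064: vertex-disjoint copies of a connected graph
-/

namespace Vale.Agent.Lib.P064

open SimpleGraph

variable {V W : Type*}

/-- `r` vertex-disjoint copies of `F` -/
def rep (r : ℕ) (F : SimpleGraph W) : SimpleGraph (Fin r × W) where
  Adj x y := x.1 = y.1 ∧ F.Adj x.2 y.2
  symm := ⟨fun _ _ h => ⟨h.1.symm, h.2.symm⟩⟩
  loopless := ⟨fun _ h => F.loopless.irrefl _ h.2⟩

theorem exists_mem_range_of_max {H : SimpleGraph V} {F : SimpleGraph W} {r : ℕ}
    (Φ : Copy (rep r F) H) (hmax : ¬ (rep (r + 1) F ⊑ H)) (f : Copy F H) :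
    ∃ x y, f x = Φ y := by
  by_contra h
  push Not at h
  apply hmax
  let g : Fin (r + 1) × W → V := fun p => Fin.cases (f p.2) (fun i => Φ (i, p.2)) p.1
  refine ⟨⟨⟨g, ?_⟩, ?_⟩⟩
  · rintro ⟨i, x⟩ ⟨j, y⟩ ⟨hij, hxy⟩
    simp only at hij hxy
    subst hij
    refine Fin.cases ?_ (fun i => ?_) i
    · exact f.toHom.map_adj hxy
    · exact Φ.toHom.map_adj (show (rep r F).Adj (i, x) (i, y) from ⟨rfl, hxy⟩)
  · rintro ⟨i, x⟩ ⟨j, y⟩ hg
    revert hg
    refine Fin.cases ?_ (fun i => ?_) i <;> refine Fin.cases ?_ (fun j => ?_) j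
    · intro hg
      have : x = y := f.injective hg
      rw [this]
    · intro hg
      exact absurd hg (h x (j, y))
    · intro hg
      exact absurd hg.symm (h y (i, x))
    · intro hg
      have : (i, x) = (j, y) := Φ.injective hg
      simp only [Prod.mk.injEq] at this
      rw [this.1, this.2]

theorem card_copy_le_of_max [Fintype V] [DecidableEq V] (H : SimpleGraph V) [DecidableRel H.Adj]
    (Δ : ℕ) (hΔ : ∀ u, H.degree u ≤ Δ) [Finite W] (F : SimpleGraph W) (hc : F.Connected) (r : ℕ)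
    (Φ : Copy (rep r F) H) (hmax : ¬ (rep (r + 1) F ⊑ H)) :
    Nat.card (Copy F H) ≤ Nat.card W * (r * Nat.card W) * Δ ^ (Nat.card W - 1) := by
  classical
  have : Fintype W := Fintype.ofFinite W
  choose x y hxy using exists_mem_range_of_max Φ hmax
  let m : Copy F H → Σ p : W × (Fin r × W), {g : F →g H // g p.1 = Φ p.2} :=
    fun f => ⟨(x f, y f), ⟨f.toHom, hxy f⟩⟩
  have hm : Function.Injective m := by
    have : Function.Injective ((fun s : Σ p : W × (Fin r × W), {g : F →g H // g p.1 = Φ p.2} =>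
        s.2.1) ∘ m) := by
      intro f g h
      ext a
      exact congrArg (fun k : F →g H => k a) h
    exact Function.Injective.of_comp this
  calc Nat.card (Copy F H)
      ≤ Nat.card (Σ p : W × (Fin r × W), {g : F →g H // g p.1 = Φ p.2}) :=
        Nat.card_le_card_of_injective m hm
    _ = ∑ p : W × (Fin r × W), Nat.card {g : F →g H // g p.1 = Φ p.2} := Nat.card_sigma
    _ ≤ ∑ _p : W × (Fin r × W), Δ ^ (Nat.card W - 1) :=
        Finset.sum_le_sum fun p _ => card_hom_rooted_le H Δ hΔ F hc p.1 (Φ p.2)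
    _ = Nat.card W * (r * Nat.card W) * Δ ^ (Nat.card W - 1) := by
        simp [Finset.card_univ, Fintype.card_prod, Nat.card_eq_fintype_card]

theorem factorial_le_card_aut_rep [Finite W] [Nonempty W] (r : ℕ) (F : SimpleGraph W) :
    r.factorial ≤ Nat.card (rep r F ≃g rep r F) := by
  classical
  let m : Equiv.Perm (Fin r) → (rep r F ≃g rep r F) := fun σ =>
    { toEquiv := Equiv.prodCongr σ (Equiv.refl W)
      map_rel_iff' := by
        rintro ⟨i, x⟩ ⟨j, y⟩
        simp [rep] }
  have hm : Function.Injective m := by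
    intro σ τ h
    obtain ⟨w⟩ := ‹Nonempty W›
    ext i
    have := congrArg (fun k : rep r F ≃g rep r F => (k (i, w)).1) h
    simpa [m] using congrArg Fin.val this
  calc r.factorial = Nat.card (Equiv.Perm (Fin r)) := by
        rw [Nat.card_eq_fintype_card, Fintype.card_perm, Fintype.card_fin]
    _ ≤ _ := Nat.card_le_card_of_injective m hm

theorem mul_card_edgeSet_le_rep [Finite W] (r : ℕ) (F : SimpleGraph W) :
    r * Nat.card F.edgeSet ≤ Nat.card (rep r F).edgeSet := by
  classical
  let m : Fin r × F.edgeSet → (rep r F).edgeSet := fun p =>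
    ⟨p.2.1.map (Prod.mk p.1), by
      obtain ⟨i, ⟨e, he⟩⟩ := p
      induction e using Sym2.ind with
      | _ x y => exact ⟨rfl, he⟩⟩
  have hm : Function.Injective m := by
    rintro ⟨i, ⟨e, he⟩⟩ ⟨j, ⟨e', he'⟩⟩ h
    have h1 : e.map (Prod.mk i) = e'.map (Prod.mk j) := congrArg Subtype.val h
    induction e using Sym2.ind with
    | _ x y =>
      induction e' using Sym2.ind with
      | _ x' y' =>
        simp only [Sym2.map_mk, Sym2.eq_iff, Prod.mk.injEq] at h1
        rcases h1 with ⟨⟨h2, h3⟩, ⟨_, h4⟩⟩ | ⟨⟨h2, h3⟩, ⟨_, h4⟩⟩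
        · subst h2 h3 h4; rfl
        · subst h2 h3 h4
          simp [Sym2.eq_swap]
  calc r * Nat.card F.edgeSet = Nat.card (Fin r × F.edgeSet) := by
        rw [Nat.card_prod, Nat.card_eq_fintype_card (α := Fin r), Fintype.card_fin]
    _ ≤ _ := Nat.card_le_card_of_injective m hm

theorem exists_max_rep [Finite V] [Finite W] [Nonempty W] (H : SimpleGraph V) (F : SimpleGraph W) :
    ∃ r : ℕ, rep r F ⊑ H ∧ ¬ (rep (r + 1) F ⊑ H) := by
  by_contra h
  push Not at h
  have hall : ∀ r : ℕ, rep r F ⊑ H := by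
    intro r
    induction r with
    | zero => exact IsContained.of_isEmpty
    | succ r ih => exact h r ih
  obtain ⟨f⟩ := hall (Nat.card V + 1)
  have h1 := Nat.card_le_card_of_injective f f.injective
  rw [Nat.card_prod, Nat.card_eq_fintype_card (α := Fin _), Fintype.card_fin] at h1
  have h2 : 0 < Nat.card W := Nat.card_pos
  nlinarith

end Vale.Agent.Lib.P064
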