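import Vale.Agent.Lib.P064.Count

/-!
# P064: rooted homomorphisms of a connected graph into a graph of bounded degree
-/

namespace Vale.Agent.Lib.P064

open SimpleGraph

variable {V W : Type*}

theorem exists_parent (F : SimpleGraph W) (hc : F.Connected) (a x : W) (hx : x ≠ a) :
    ∃ y, F.Adj x y ∧ F.dist y a < F.dist x a := by
  obtain ⟨p, hp⟩ := hc.exists_walk_length_eq_dist x a
  cases p with
  | nil => exact absurd rfl hx
  | cons h q =>
    rename_i y
    refine ⟨y, h, ?_⟩
    have := dist_le q
    rw [Walk.length_cons] at hp
    omega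

/-- the number of homomorphisms of a connected graph with a prescribed value at one vertex -/
theorem card_hom_rooted_le [Fintype V] [DecidableEq V] (H : SimpleGraph V) [DecidableRel H.Adj]
    (Δ : ℕ) (hΔ : ∀ u, H.degree u ≤ Δ) [Finite W] (F : SimpleGraph W) (hc : F.Connected)
    (a : W) (u : V) : Nat.card {f : F →g H // f a = u} ≤ Δ ^ (Nat.card W - 1) := by
  classical
  have : Fintype W := Fintype.ofFinite W
  choose! par hpar1 hpar2 using exists_parent F hc a
  let idx : V → V → ℕ := fun w v => (H.neighborFinset w).toList.idxOf v
  have hidx_lt : ∀ w v, H.Adj w v → idx w v < Δ := by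
    intro w v h
    have h1 : v ∈ (H.neighborFinset w).toList := by simpa using h
    have h2 := List.idxOf_lt_length_of_mem h1
    have h3 : (H.neighborFinset w).toList.length = H.degree w := by simp
    have := hΔ w
    show (H.neighborFinset w).toList.idxOf v < Δ
    omega
  have hidx_inj : ∀ w v v', H.Adj w v → H.Adj w v' → idx w v = idx w v' → v = v' := by
    intro w v v' h h' he
    have h1 : v ∈ (H.neighborFinset w).toList := by simpa using h
    exact (List.idxOf_inj h1).mp he
  let code : {f : F →g H // f a = u} → ({x : W // x ≠ a} → Fin Δ) := fun f x =>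
    ⟨idx (f.1 (par x.1)) (f.1 x.1), hidx_lt _ _ (f.1.map_adj (hpar1 x.1 x.2).symm)⟩
  have hcode : Function.Injective code := by
    rintro ⟨f, hf⟩ ⟨g, hg⟩ h
    have key : ∀ k : ℕ, ∀ x : W, F.dist x a = k → f x = g x := by
      intro k
      induction k using Nat.strong_induction_on with
      | _ k ih =>
        intro x hxk
        by_cases hx : x = a
        · rw [hx, hf, hg]
        · have h1 : f (par x) = g (par x) := ih _ (hxk ▸ hpar2 x hx) _ rfl
          have h2 := congrFun h ⟨x, hx⟩
          simp only [code, Fin.mk.injEq] at h2
          rw [← h1] at h2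
          refine hidx_inj _ _ _ (f.map_adj (hpar1 x hx).symm) ?_ h2
          rw [h1]
          exact g.map_adj (hpar1 x hx).symm
    apply Subtype.ext
    ext x
    exact key _ x rfl
  calc Nat.card {f : F →g H // f a = u} ≤ Nat.card ({x : W // x ≠ a} → Fin Δ) :=
        Nat.card_le_card_of_injective code hcode
    _ = Δ ^ (Nat.card W - 1) := by
        rw [Nat.card_eq_fintype_card, Fintype.card_fun, Fintype.card_fin,
          Fintype.card_subtype_compl, Fintype.card_subtype_eq, Nat.card_eq_fintype_card]

end Vale.Agent.Lib.P064
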